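import Mathlib

/-!
# Statement-level definition for P240: the set of nonidentity elementary abelian `p`-subgroups
-/

namespace Vale.Agent.H64.Quillen

/-- `A_p(G)`: the set of nonidentity elementary abelian `p`-subgroups of `G`, that is of the
subgroups `E ≠ 1` that are abelian and in which every element satisfies `x ^ p = 1`.  (For a
finite group and a prime `p` these are exactly the subgroups isomorphic to `(ℤ/p)^r`, `r ≥ 1`.)
As a subset of `Subgroup G` it carries the inclusion order. -/
def Ap (p : ℕ) (G : Type*) [Group G] : Set (Subgroup G) :=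
  {E | E ≠ ⊥ ∧ (∀ x ∈ E, ∀ y ∈ E, x * y = y * x) ∧ ∀ x ∈ E, x ^ p = 1}

end Vale.Agent.H64.Quillen
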