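import Mathlib

/-!
# A fixed point theorem for finite posets that contract through poset maps

Let `le` be a partial order relation on a finite type `X`, `S` a finite subset, and call a map
`f : X → X` an `S`-map if it maps `S` to `S` and is order preserving on `S`.  If the identity of
`S` is joined to a constant map by a finite chain of `S`-maps in which consecutive maps are
comparable pointwise on `S`, then every family of order automorphisms of `S` has a common fixed
point in `S`.  (Stong's fixed point theorem for contractible finite spaces.)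
-/

namespace Vale.Agent.H64.Quillen

open Classical

variable {X : Type*}

/-- `le` is a partial order relation. -/
structure IsPO (le : X → X → Prop) : Prop where
  refl : ∀ x, le x x
  trans : ∀ x y z, le x y → le y z → le x z
  antisymm : ∀ x y, le x y → le y x → x = y

theorem IsPO.swap {le : X → X → Prop} (h : IsPO le) : IsPO (fun a b => le b a) :=
  ⟨h.refl, fun x y z hxy hyz => h.trans z y x hyz hxy, fun x y hxy hyx => h.antisymm x y hyx hxy⟩

/-- `f` maps `S` to `S` and is order preserving on `S`. -/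
def SMap (le : X → X → Prop) (S : Finset X) (f : X → X) : Prop :=
  (∀ x ∈ S, f x ∈ S) ∧ ∀ x ∈ S, ∀ y ∈ S, le x y → le (f x) (f y)

/-- `f` and `g` are comparable pointwise on `S`. -/
def Comp (le : X → X → Prop) (S : Finset X) (f g : X → X) : Prop :=
  (∀ x ∈ S, le (f x) (g x)) ∨ ∀ x ∈ S, le (g x) (f x)

/-- One step of a fence of `S`-maps. -/
def Rel (le : X → X → Prop) (S : Finset X) (f g : X → X) : Prop :=
  SMap le S f ∧ SMap le S g ∧ Comp le S f g

/-- The identity of `S` is joined to a constant map by a fence of `S`-maps. -/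
def Contr (le : X → X → Prop) (S : Finset X) : Prop :=
  ∃ f g : X → X, (∀ x ∈ S, f x = x) ∧ (∃ c ∈ S, ∀ x ∈ S, g x = c) ∧
    Relation.ReflTransGen (Rel le S) f g

/-- Every map of `A` restricts to an order automorphism of `S`. -/
def Acts (le : X → X → Prop) (S : Finset X) (A : Set (X → X)) : Prop :=
  ∀ g ∈ A, (∀ x ∈ S, g x ∈ S) ∧ (∀ x ∈ S, ∃ y ∈ S, g y = x) ∧
    ∀ x ∈ S, ∀ y ∈ S, (le (g x) (g y) ↔ le x y)

/-- `x` is an up-beat point of `S`: the elements of `S` strictly above `x` have a least one. -/
def UpBeat (le : X → X → Prop) (S : Finset X) (x : X) : Prop :=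
  x ∈ S ∧ ∃ y ∈ S, le x y ∧ x ≠ y ∧ ∀ z ∈ S, le x z → x ≠ z → le y z

theorem SMap.swap {le : X → X → Prop} {S : Finset X} {f : X → X} (h : SMap le S f) :
    SMap (fun a b => le b a) S f :=
  ⟨h.1, fun x hx y hy hxy => h.2 y hy x hx hxy⟩

theorem Comp.swap {le : X → X → Prop} {S : Finset X} {f g : X → X} (h : Comp le S f g) :
    Comp (fun a b => le b a) S f g := by
  rcases h with h | h
  · exact Or.inr h
  · exact Or.inl h

theorem Contr.swap {le : X → X → Prop} {S : Finset X} (h : Contr le S) :
    Contr (fun a b => le b a) S := by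
  obtain ⟨f, g, hf, hg, hfg⟩ := h
  refine ⟨f, g, hf, hg, ?_⟩
  exact Relation.ReflTransGen.mono (fun a b hab => ⟨hab.1.swap, hab.2.1.swap, hab.2.2.swap⟩) _ _ hfg

theorem Acts.swap {le : X → X → Prop} {S : Finset X} {A : Set (X → X)} (h : Acts le S A) :
    Acts (fun a b => le b a) S A :=
  fun g hg => ⟨(h g hg).1, (h g hg).2.1, fun x hx y hy => (h g hg).2.2 y hy x hx⟩

/-- The number of elements of `S` strictly above `x`. -/
noncomputable def above (le : X → X → Prop) (S : Finset X) (x : X) : ℕ :=
  (S.filter fun z => le x z ∧ x ≠ z).card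

theorem above_lt {le : X → X → Prop} (hle : IsPO le) {S : Finset X} {x y : X}
    (hy : y ∈ S) (hxy : le x y) (hne : x ≠ y) : above le S y < above le S x := by
  unfold above
  apply Finset.card_lt_card
  rw [Finset.ssubset_iff_of_subset]
  · refine ⟨y, ?_, ?_⟩
    · simp only [Finset.mem_filter]
      exact ⟨hy, hxy, hne⟩
    · simp only [Finset.mem_filter, not_and, not_not]
      intro _ _
      trivial
  · intro z hz
    simp only [Finset.mem_filter] at hz ⊢
    refine ⟨hz.1, hle.trans x y z hxy hz.2.1, ?_⟩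
    intro hxz
    subst hxz
    exact hz.2.2 (hle.antisymm _ _ hz.2.1 hxy)

/-- The least non-up-beat point above a point of `S`. -/
theorem exists_retract {le : X → X → Prop} (hle : IsPO le) (S : Finset X) :
    ∀ n : ℕ, ∀ x ∈ S, above le S x = n → ∃ w ∈ S, ¬ UpBeat le S w ∧ le x w ∧
      ∀ z ∈ S, ¬ UpBeat le S z → le x z → le w z := by
  intro n
  induction n using Nat.strong_induction_on with
  | _ n ih =>
    intro x hx hn
    by_cases hb : UpBeat le S x
    · obtain ⟨-, y, hy, hxy, hne, hmin⟩ := hb
      obtain ⟨w, hw, hwb, hyw, hwmin⟩ := ih (above le S y) (hn ▸ above_lt hle hy hxy hne) y hy rfl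
      refine ⟨w, hw, hwb, hle.trans x y w hxy hyw, ?_⟩
      intro z hz hzb hxz
      have hxz' : x ≠ z := by
        intro h
        subst h
        exact hzb ⟨hx, y, hy, hxy, hne, hmin⟩
      exact hwmin z hz hzb (hmin z hz hxz hxz')
    · exact ⟨x, hx, hb, hle.refl x, fun z _ _ hxz => hxz⟩

/-- The retraction of `S` onto its non-up-beat points. -/
noncomputable def retr (le : X → X → Prop) (hle : IsPO le) (S : Finset X) (x : X) : X :=
  if hx : x ∈ S then Classical.choose (exists_retract hle S (above le S x) x hx rfl) else x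

theorem retr_spec {le : X → X → Prop} (hle : IsPO le) (S : Finset X) {x : X} (hx : x ∈ S) :
    retr le hle S x ∈ S ∧ ¬ UpBeat le S (retr le hle S x) ∧ le x (retr le hle S x) ∧
      ∀ z ∈ S, ¬ UpBeat le S z → le x z → le (retr le hle S x) z := by
  unfold retr
  rw [dif_pos hx]
  exact Classical.choose_spec (exists_retract hle S (above le S x) x hx rfl)

theorem retr_mono {le : X → X → Prop} (hle : IsPO le) (S : Finset X) {x y : X} (hx : x ∈ S)
    (hy : y ∈ S) (hxy : le x y) : le (retr le hle S x) (retr le hle S y) := by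
  obtain ⟨h1, h2, h3, -⟩ := retr_spec hle S hy
  exact (retr_spec hle S hx).2.2.2 _ h1 h2 (hle.trans _ _ _ hxy h3)

theorem retr_id {le : X → X → Prop} (hle : IsPO le) (S : Finset X) {x : X} (hx : x ∈ S)
    (hb : ¬ UpBeat le S x) : retr le hle S x = x := by
  obtain ⟨-, -, h3, h4⟩ := retr_spec hle S hx
  exact hle.antisymm _ _ (h4 x hx hb (hle.refl x)) h3

/-- The set of non-up-beat points of `S`. -/
noncomputable def core (le : X → X → Prop) (S : Finset X) : Finset X :=
  S.filter fun x => ¬ UpBeat le S x

theorem mem_core {le : X → X → Prop} {S : Finset X} {x : X} :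
    x ∈ core le S ↔ x ∈ S ∧ ¬ UpBeat le S x := by
  simp [core]

theorem retr_mem_core {le : X → X → Prop} (hle : IsPO le) (S : Finset X) {x : X} (hx : x ∈ S) :
    retr le hle S x ∈ core le S :=
  mem_core.mpr ⟨(retr_spec hle S hx).1, (retr_spec hle S hx).2.1⟩

theorem SMap.core {le : X → X → Prop} (hle : IsPO le) {S : Finset X} {f : X → X}
    (h : SMap le S f) : SMap le (core le S) (fun x => retr le hle S (f x)) := by
  refine ⟨fun x hx => retr_mem_core hle S (h.1 x (mem_core.mp hx).1), ?_⟩
  intro x hx y hy hxy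
  exact retr_mono hle S (h.1 x (mem_core.mp hx).1) (h.1 y (mem_core.mp hy).1)
    (h.2 x (mem_core.mp hx).1 y (mem_core.mp hy).1 hxy)

theorem Contr.core {le : X → X → Prop} (hle : IsPO le) {S : Finset X} (h : Contr le S) :
    Contr le (core le S) := by
  obtain ⟨f, g, hf, ⟨c, hc, hg⟩, hfg⟩ := h
  refine ⟨fun x => retr le hle S (f x), fun x => retr le hle S (g x), ?_, ?_, ?_⟩
  · intro x hx
    show retr le hle S (f x) = x
    rw [hf x (mem_core.mp hx).1]
    exact retr_id hle S (mem_core.mp hx).1 (mem_core.mp hx).2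
  · refine ⟨retr le hle S c, retr_mem_core hle S hc, ?_⟩
    intro x hx
    show retr le hle S (g x) = retr le hle S c
    rw [hg x (mem_core.mp hx).1]
  · refine Relation.ReflTransGen.lift (fun (u : X → X) => fun x => retr le hle S (u x)) ?_ _ _ hfg
    intro u v huv
    refine ⟨huv.1.core hle, huv.2.1.core hle, ?_⟩
    rcases huv.2.2 with h | h
    · exact Or.inl fun x hx => retr_mono hle S (huv.1.1 x (mem_core.mp hx).1)
        (huv.2.1.1 x (mem_core.mp hx).1) (h x (mem_core.mp hx).1)
    · exact Or.inr fun x hx => retr_mono hle S (huv.2.1.1 x (mem_core.mp hx).1)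
        (huv.1.1 x (mem_core.mp hx).1) (h x (mem_core.mp hx).1)

theorem Acts.inj {le : X → X → Prop} (hle : IsPO le) {S : Finset X} {A : Set (X → X)}
    (h : Acts le S A) {g : X → X} (hg : g ∈ A) {x y : X} (hx : x ∈ S) (hy : y ∈ S)
    (hxy : g x = g y) : x = y := by
  obtain ⟨-, -, h3⟩ := h g hg
  exact hle.antisymm _ _ ((h3 x hx y hy).mp (hxy ▸ hle.refl _))
    ((h3 y hy x hx).mp (hxy ▸ hle.refl _))

theorem Acts.upBeat_iff {le : X → X → Prop} (hle : IsPO le) {S : Finset X} {A : Set (X → X)}
    (h : Acts le S A) {g : X → X} (hg : g ∈ A) {x : X} (hx : x ∈ S) :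
    UpBeat le S (g x) ↔ UpBeat le S x := by
  obtain ⟨h1, h2, h3⟩ := h g hg
  constructor
  · rintro ⟨-, w, hw, hxw, hne, hmin⟩
    obtain ⟨y, hy, rfl⟩ := h2 w hw
    refine ⟨hx, y, hy, (h3 x hx y hy).mp hxw, fun hxy => hne (by rw [hxy]), ?_⟩
    intro z hz hxz hnz
    refine (h3 y hy z hz).mp (hmin (g z) (h1 z hz) ((h3 x hx z hz).mpr hxz) ?_)
    intro hgz
    exact hnz (h.inj hle hg hx hz hgz)
  · rintro ⟨-, y, hy, hxy, hne, hmin⟩
    refine ⟨h1 x hx, g y, h1 y hy, (h3 x hx y hy).mpr hxy, ?_, ?_⟩
    · intro hgxy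
      exact hne (h.inj hle hg hx hy hgxy)
    · intro z hz hgxz hnz
      obtain ⟨z', hz', rfl⟩ := h2 z hz
      refine (h3 y hy z' hz').mpr (hmin z' hz' ((h3 x hx z' hz').mp hgxz) ?_)
      intro hxz
      exact hnz (by rw [hxz])

theorem Acts.core {le : X → X → Prop} (hle : IsPO le) {S : Finset X} {A : Set (X → X)}
    (h : Acts le S A) : Acts le (core le S) A := by
  intro g hg
  obtain ⟨h1, h2, h3⟩ := h g hg
  refine ⟨?_, ?_, ?_⟩
  · intro x hx
    exact mem_core.mpr ⟨h1 x (mem_core.mp hx).1,
      fun hb => (mem_core.mp hx).2 ((h.upBeat_iff hle hg (mem_core.mp hx).1).mp hb)⟩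
  · intro x hx
    obtain ⟨y, hy, rfl⟩ := h2 x (mem_core.mp hx).1
    exact ⟨y, mem_core.mpr ⟨hy, fun hb => (mem_core.mp hx).2
      ((h.upBeat_iff hle hg hy).mpr hb)⟩, rfl⟩
  · intro x hx y hy
    exact h3 x (mem_core.mp hx).1 y (mem_core.mp hy).1

/-- Without up-beat points, an `S`-map above the identity is the identity on `S`. -/
theorem rigid {le : X → X → Prop} (hle : IsPO le) {S : Finset X}
    (hU : ∀ x, ¬ UpBeat le S x) {f : X → X} (hf : SMap le S f) (hge : ∀ x ∈ S, le x (f x)) :
    ∀ x ∈ S, f x = x := by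
  by_contra hcon
  push Not at hcon
  have hT : (S.filter fun x => f x ≠ x).Nonempty := by
    obtain ⟨x, hx, hfx⟩ := hcon
    exact ⟨x, Finset.mem_filter.mpr ⟨hx, hfx⟩⟩
  obtain ⟨x, hxT, hmin⟩ := Finset.exists_min_image _ (above le S) hT
  obtain ⟨hx, hfx⟩ := Finset.mem_filter.mp hxT
  refine hU x ⟨hx, f x, hf.1 x hx, hge x hx, fun h => hfx h.symm, ?_⟩
  intro z hz hxz hne
  have hfz : f z = z := by
    by_contra hfz
    have := hmin z (Finset.mem_filter.mpr ⟨hz, hfz⟩)
    exact absurd (above_lt hle hz hxz hne) (not_lt.mpr this)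
  have := hf.2 x hx z hz hxz
  rwa [hfz] at this

/-- **Fixed point theorem.** If the identity of `S` is joined to a constant map by a fence of
`S`-maps, then any set of order automorphisms of `S` has a common fixed point in `S`. -/
theorem fixed_point {le : X → X → Prop} (hle : IsPO le) (A : Set (X → X)) :
    ∀ S : Finset X, Contr le S → Acts le S A → ∃ x ∈ S, ∀ g ∈ A, g x = x := by
  intro S
  induction S using Finset.strongInduction with
  | _ S ih =>
    intro hC hA
    by_cases hU : ∃ x, UpBeat le S x
    · obtain ⟨x, hx⟩ := hU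
      have hsub : core le S ⊆ S := Finset.filter_subset _ _
      have hss : core le S ⊂ S := by
        rw [Finset.ssubset_iff_of_subset hsub]
        exact ⟨x, hx.1, fun h => (mem_core.mp h).2 hx⟩
      obtain ⟨y, hy, hfix⟩ := ih _ hss (hC.core hle) (hA.core hle)
      exact ⟨y, (mem_core.mp hy).1, hfix⟩
    · by_cases hD : ∃ x, UpBeat (fun a b => le b a) S x
      · obtain ⟨x, hx⟩ := hD
        have hsub : core (fun a b => le b a) S ⊆ S := Finset.filter_subset _ _
        have hss : core (fun a b => le b a) S ⊂ S := by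
          rw [Finset.ssubset_iff_of_subset hsub]
          exact ⟨x, hx.1, fun h => (mem_core.mp h).2 hx⟩
        obtain ⟨y, hy, hfix⟩ := ih _ hss (hC.swap.core hle.swap).swap (hA.swap.core hle.swap).swap
        exact ⟨y, (mem_core.mp hy).1, hfix⟩
      · push Not at hU hD
        obtain ⟨f, g, hf, ⟨c, hc, hg⟩, hfg⟩ := hC
        have key : ∀ u v : X → X, Relation.ReflTransGen (Rel le S) u v →
            (∀ x ∈ S, u x = x) → ∀ x ∈ S, v x = x := by
          intro u v huv
          induction huv with
          | refl => exact fun h => h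
          | tail _ hbc ihb =>
            intro hu
            have hb := ihb hu
            rcases hbc.2.2 with h | h
            · exact rigid hle hU hbc.2.1 (fun x hx => by have := h x hx; rwa [hb x hx] at this)
            · exact rigid hle.swap hD hbc.2.1.swap
                (fun x hx => by have := h x hx; rwa [hb x hx] at this)
        have hgid := key f g hfg hf
        refine ⟨c, hc, fun a ha => ?_⟩
        have hac := (hA a ha).1 c hc
        exact (hgid (a c) hac).symm.trans (hg (a c) hac)

end Vale.Agent.H64.Quillen
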