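import Vale.Agent.H64.Quillen.Defs
import Vale.Agent.H64.Quillen.Fence

/-!
# Quillen's poset `A_p(G)` when `O_p(G) = 1`

* `not_fence_contractible`: if `G` has no nontrivial normal `p`-subgroup then the identity of
  `A_p(G)` is not joined to a constant map by a fence of order preserving self-maps.
* `ti_disconnected`: if moreover `p ∣ |G|` and distinct Sylow `p`-subgroups intersect trivially,
  then `A_p(G)` is disconnected.
-/

namespace Vale.Agent.H64.Quillen

variable {G : Type*} [Group G]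

theorem conj_mem_Ap {p : ℕ} (g : G) {E : Subgroup G} (hE : E ∈ Ap p G) :
    E.map (MulAut.conj g).toMonoidHom ∈ Ap p G := by
  refine ⟨?_, ?_, ?_⟩
  · exact fun h => hE.1 ((Subgroup.map_eq_bot_iff_of_injective _ (MulAut.conj g).injective).mp h)
  · rintro _ ⟨a, ha, rfl⟩ _ ⟨b, hb, rfl⟩
    rw [← map_mul, ← map_mul, hE.2.1 a ha b hb]
  · rintro _ ⟨a, ha, rfl⟩
    rw [← map_pow, hE.2.2 a ha, map_one]

theorem conj_conj_inv (g : G) (E : Subgroup G) :
    (E.map (MulAut.conj g⁻¹).toMonoidHom).map (MulAut.conj g).toMonoidHom = E := by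
  rw [Subgroup.map_map]
  convert Subgroup.map_id E
  ext x
  simp [mul_assoc]

theorem isPGroup_of_mem_Ap {p : ℕ} {E : Subgroup G} (hE : E ∈ Ap p G) : IsPGroup p E := by
  intro x
  refine ⟨1, ?_⟩
  rw [pow_one]
  ext
  simpa using hE.2.2 x.1 x.2

/-- If `G` has no nontrivial normal `p`-subgroup, then `A_p(G)` is not contractible through
poset maps: no fence of order preserving self-maps joins the identity to a constant map. -/
theorem not_fence_contractible [Finite G] (p : ℕ)
    (hOp : ∀ N : Subgroup G, N.Normal → IsPGroup p N → N = ⊥) :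
    ¬ ∃ c : Ap p G, Relation.ReflTransGen
        (fun f g : Ap p G →o Ap p G => f ≤ g ∨ g ≤ f) OrderHom.id (OrderHom.const _ c) := by
  classical
  rintro ⟨c, hchain⟩
  have : Fintype (Subgroup G) := Fintype.ofFinite _
  let S : Finset (Subgroup G) := Finset.univ.filter (· ∈ Ap p G)
  have hS : ∀ E, E ∈ S ↔ E ∈ Ap p G := by simp [S]
  let F : (Ap p G →o Ap p G) → (Subgroup G → Subgroup G) :=
    fun φ E => if h : E ∈ Ap p G then (φ ⟨E, h⟩ : Subgroup G) else E
  have hF : ∀ φ E (h : E ∈ Ap p G), F φ E = φ ⟨E, h⟩ := by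
    intro φ E h
    simp [F, h]
  have hSMap : ∀ φ, SMap (· ≤ ·) S (F φ) := by
    intro φ
    refine ⟨fun E hE => ?_, fun E hE E' hE' hle => ?_⟩
    · rw [hS] at hE ⊢
      rw [hF φ E hE]
      exact (φ ⟨E, hE⟩).2
    · rw [hS] at hE hE'
      rw [hF φ E hE, hF φ E' hE']
      exact φ.monotone (show (⟨E, hE⟩ : Ap p G) ≤ ⟨E', hE'⟩ from hle)
  have hC : Contr (· ≤ ·) S := by
    refine ⟨F OrderHom.id, F (OrderHom.const _ c), ?_, ⟨c.1, (hS _).mpr c.2, ?_⟩, ?_⟩
    · intro E hE
      rw [hS] at hE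
      rw [hF _ E hE]
      rfl
    · intro E hE
      rw [hS] at hE
      rw [hF _ E hE]
      rfl
    · refine Relation.ReflTransGen.lift F ?_ _ _ hchain
      intro φ ψ h
      refine ⟨hSMap φ, hSMap ψ, ?_⟩
      rcases h with h | h
      · left
        intro E hE
        rw [hS] at hE
        rw [hF φ E hE, hF ψ E hE]
        exact h ⟨E, hE⟩
      · right
        intro E hE
        rw [hS] at hE
        rw [hF φ E hE, hF ψ E hE]
        exact h ⟨E, hE⟩
  let A : Set (Subgroup G → Subgroup G) :=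
    Set.range fun g : G => fun E : Subgroup G => E.map (MulAut.conj g).toMonoidHom
  have hA : Acts (· ≤ ·) S A := by
    rintro _ ⟨g, rfl⟩
    refine ⟨?_, ?_, ?_⟩
    · intro E hE
      rw [hS] at hE ⊢
      exact conj_mem_Ap g hE
    · intro E hE
      rw [hS] at hE
      exact ⟨E.map (MulAut.conj g⁻¹).toMonoidHom, (hS _).mpr (conj_mem_Ap g⁻¹ hE),
        conj_conj_inv g E⟩
    · intro E _ E' _
      exact Subgroup.map_le_map_iff_of_injective (MulAut.conj g).injective
  obtain ⟨E, hE, hfix⟩ :=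
    fixed_point ⟨le_refl, fun _ _ _ => le_trans, fun _ _ => le_antisymm⟩ A S hC hA
  rw [hS] at hE
  have hnormal : E.Normal := by
    constructor
    intro n hn g
    have h1 : E.map (MulAut.conj g).toMonoidHom = E := hfix _ ⟨g, rfl⟩
    rw [← h1]
    exact ⟨n, hn, by simp [MulAut.conj_apply]⟩
  exact hE.1 (hOp E hnormal (isPGroup_of_mem_Ap hE))

theorem zpowers_mem_Ap {p : ℕ} (hp : p.Prime) {x : G} (hx : orderOf x = p) :
    Subgroup.zpowers x ∈ Ap p G := by
  refine ⟨?_, ?_, ?_⟩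
  · intro h
    rw [Subgroup.zpowers_eq_bot] at h
    rw [h, orderOf_one] at hx
    exact hp.one_lt.ne hx
  · rintro _ ⟨a, rfl⟩ _ ⟨b, rfl⟩
    exact (Commute.zpow_zpow_self x a b).eq
  · rintro _ ⟨a, rfl⟩
    show (x ^ a) ^ p = 1
    rw [← zpow_natCast, ← zpow_mul, mul_comm, zpow_mul, zpow_natCast, ← hx, pow_orderOf_eq_one,
      one_zpow]

/-- If `G` has no nontrivial normal `p`-subgroup, `p` divides `|G|` and any two distinct Sylow
`p`-subgroups of `G` intersect trivially, then `A_p(G)` is disconnected. -/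
theorem ti_disconnected [Finite G] (p : ℕ) [hp : Fact p.Prime]
    (hOp : ∀ N : Subgroup G, N.Normal → IsPGroup p N → N = ⊥)
    (hdvd : p ∣ Nat.card G)
    (hTI : ∀ P Q : Sylow p G, P ≠ Q → (P : Subgroup G) ⊓ (Q : Subgroup G) = ⊥) :
    ∃ E F : Ap p G, ¬ Relation.EqvGen (fun a b : Ap p G => a ≤ b) E F := by
  classical
  obtain ⟨P⟩ : Nonempty (Sylow p G) := inferInstance
  have hPne : (P : Subgroup G) ≠ ⊥ := P.ne_bot_of_dvd_card hdvd
  -- a second Sylow subgroup
  have hQ : ∃ Q : Sylow p G, Q ≠ P := by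
    by_contra hcon
    push Not at hcon
    have hnorm : (P : Subgroup G).Normal := by
      rw [← Subgroup.normalizer_eq_top_iff]
      rw [eq_top_iff]
      intro g _
      exact Sylow.smul_eq_iff_mem_normalizer.mp (hcon _)
    exact hPne (hOp P hnorm P.isPGroup')
  obtain ⟨Q, hQP⟩ := hQ
  have hQne : (Q : Subgroup G) ≠ ⊥ := Q.ne_bot_of_dvd_card hdvd
  -- subgroups of order p in P and in Q
  have hsub : ∀ R : Sylow p G, (R : Subgroup G) ≠ ⊥ →
      ∃ E : Subgroup G, E ∈ Ap p G ∧ E ≤ R := by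
    intro R hR
    have hcard : p ∣ Nat.card (R : Subgroup G) := by
      obtain ⟨n, hn⟩ := (IsPGroup.iff_card.mp R.isPGroup')
      rw [hn]
      rcases n with _ | n
      · exfalso
        rw [pow_zero] at hn
        exact hR ((Subgroup.card_eq_one).mp hn)
      · exact dvd_pow_self p (Nat.succ_ne_zero n)
    obtain ⟨x, hx⟩ := exists_prime_orderOf_dvd_card' p hcard
    refine ⟨Subgroup.zpowers (x : G), zpowers_mem_Ap hp.out ((Subgroup.orderOf_coe x).trans hx),
      ?_⟩
    rw [Subgroup.zpowers_le]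
    exact x.2
  obtain ⟨E, hE, hEP⟩ := hsub P hPne
  obtain ⟨F, hF, hFQ⟩ := hsub Q hQne
  refine ⟨⟨E, hE⟩, ⟨F, hF⟩, ?_⟩
  intro hconn
  -- the invariant: being contained in P
  have hinv : ∀ a b : Ap p G, a ≤ b → ((a : Subgroup G) ≤ P ↔ (b : Subgroup G) ≤ P) := by
    intro a b hab
    constructor
    · intro haP
      obtain ⟨R, hbR⟩ := (isPGroup_of_mem_Ap b.2).exists_le_sylow
      by_cases hRP : R = P
      · rw [← hRP]
        exact hbR
      · exfalso
        have h1 : (a : Subgroup G) ≤ (R : Subgroup G) ⊓ (P : Subgroup G) :=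
          le_inf (le_trans hab hbR) haP
        rw [hTI R P hRP] at h1
        exact a.2.1 (le_bot_iff.mp h1)
    · intro hbP
      exact le_trans hab hbP
  have hequiv : Equivalence (fun a b : Ap p G => ((a : Subgroup G) ≤ P ↔ (b : Subgroup G) ≤ P)) :=
    ⟨fun _ => Iff.rfl, fun h => h.symm, fun h1 h2 => h1.trans h2⟩
  have h2 := (hequiv.eqvGen_iff).mp (Relation.EqvGen.mono hinv _ _ hconn)
  have hFP : F ≤ (P : Subgroup G) := h2.mp hEP
  have h3 : F ≤ (Q : Subgroup G) ⊓ (P : Subgroup G) := le_inf hFQ hFP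
  rw [hTI Q P hQP] at h3
  exact hF.1 (le_bot_iff.mp h3)

end Vale.Agent.H64.Quillen
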